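import Vale.Agent.P045.C42.Db0

namespace Vale.Agent.P045.C42

open Vale.Agent.P045

noncomputable def s0_2 (i sh : Nat) : Nat := Bool.rec (Nat.shiftRight leaf0 sh) (Nat.shiftRight leaf1 sh) (Nat.ble 1 i)
noncomputable def s2_4 (i sh : Nat) : Nat := Bool.rec (Nat.shiftRight leaf2 sh) (Nat.shiftRight leaf3 sh) (Nat.ble 3 i)
noncomputable def s0_4 (i sh : Nat) : Nat := Bool.rec (s0_2 i sh) (s2_4 i sh) (Nat.ble 2 i)
noncomputable def s4_6 (i sh : Nat) : Nat := Bool.rec (Nat.shiftRight leaf4 sh) (Nat.shiftRight leaf5 sh) (Nat.ble 5 i)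
noncomputable def s6_8 (i sh : Nat) : Nat := Bool.rec (Nat.shiftRight leaf6 sh) (Nat.shiftRight leaf7 sh) (Nat.ble 7 i)
noncomputable def s4_8 (i sh : Nat) : Nat := Bool.rec (s4_6 i sh) (s6_8 i sh) (Nat.ble 6 i)
noncomputable def s0_8 (i sh : Nat) : Nat := Bool.rec (s0_4 i sh) (s4_8 i sh) (Nat.ble 4 i)

noncomputable def sel (i sh : Nat) : Nat :=
  s0_8 i sh

noncomputable def db (id : Nat) : Nat :=
  Nat.land (sel (Nat.shiftRight id 5) (Nat.mul (Nat.land id 31) 922)) 35453245841927124566985666707751764300614838639721738315958305819414631299028500879887779104617985501046150297884773565541615134371397631354113354232368341106962462435900208328787956472260898038631420034941469125892347066566416742519309495457378818583775642048219297237962850303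

def par : Par := ⟨4, true, 6, 64, 18446744073709551615, 9223512776490647552⟩

end Vale.Agent.P045.C42
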