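import Vale.Agent.P045.Sound
import Vale.Agent.P045.C42.Pf0

namespace Vale.Agent.P045.C42

open Vale.Agent.P045

theorem parWF : par.WF := by
  refine ⟨by decide, rfl, ?_, by decide⟩
  intro p
  have h : par.all = 2 ^ 64 - 1 := by norm_num [par]
  rw [h, Nat.testBit_two_pow_sub_one]
  rfl

universe u

theorem good : ∀ j, j < 251 → Good.{u} par (db j) := by
  have h0 : ∀ j, j < 0 → Good.{u} par (db j) := fun j hj => absurd hj (Nat.not_lt_zero j)
  have h1 := checkRange_sound parWF pf0 h0
  exact h1

theorem core (V : Type u) (E : (ℕ → V) → Prop) : ¬ Bad par E :=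
  not_bad_of_good_empty (db 250) (by decide +kernel) (by decide +kernel) (good 250 (by norm_num)) V E

end Vale.Agent.P045.C42
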